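import Mathlib

namespace Vale.Agent.Results.P205.WarpedTorus

open Real

open scoped ContDiff

/-- A continuous `1`-periodic function is bounded below by one of its values. -/
theorem periodic_exists_min (f : ℝ → ℝ) (hf : Continuous f) (hp : Function.Periodic f 1) :
    ∃ x0, ∀ x, f x0 ≤ f x := by
  obtain ⟨x0, _, hx0⟩ := (isCompact_Icc (a := (0 : ℝ)) (b := 1)).exists_isMinOn
    (Set.nonempty_Icc.mpr zero_le_one) hf.continuousOn
  refine ⟨x0, fun x => ?_⟩
  obtain ⟨y, hy, hxy⟩ := hp.exists_mem_Ico₀ one_pos x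
  rw [hxy]
  exact hx0 (Set.Ico_subset_Icc_self hy)

/-- A continuous `1`-periodic function is bounded above by one of its values. -/
theorem periodic_exists_max (f : ℝ → ℝ) (hf : Continuous f) (hp : Function.Periodic f 1) :
    ∃ x0, ∀ x, f x ≤ f x0 := by
  obtain ⟨x0, _, hx0⟩ := (isCompact_Icc (a := (0 : ℝ)) (b := 1)).exists_isMaxOn
    (Set.nonempty_Icc.mpr zero_le_one) hf.continuousOn
  refine ⟨x0, fun x => ?_⟩
  obtain ⟨y, hy, hxy⟩ := hp.exists_mem_Ico₀ one_pos x
  rw [hxy]
  exact hx0 (Set.Ico_subset_Icc_self hy)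

/-- Every warped-product metric `a(u)^2 du^2 + b(u)^2 dv^2` on the torus `ℝ^2 / ℤ^2`
(`a`, `b` smooth, positive, `1`-periodic) is induced by a smooth doubly periodic map
`Φ : ℝ^2 → ℝ^4`, that is, by a smooth isometric immersion of the torus into `ℝ^4`. -/
theorem result (a b : ℝ → ℝ)
    (ha : ContDiff ℝ ((⊤ : ℕ∞) : WithTop ℕ∞) a) (hb : ContDiff ℝ ((⊤ : ℕ∞) : WithTop ℕ∞) b)
    (hap : ∀ u, a (u + 1) = a u) (hbp : ∀ u, b (u + 1) = b u)
    (ha0 : ∀ u, 0 < a u) (hb0 : ∀ u, 0 < b u) :
    ∃ Φ : ℝ × ℝ → Fin 4 → ℝ,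
      ContDiff ℝ ((⊤ : ℕ∞) : WithTop ℕ∞) Φ ∧
      (∀ u v, Φ (u + 1, v) = Φ (u, v)) ∧ (∀ u v, Φ (u, v + 1) = Φ (u, v)) ∧
      ∀ u v,
        (∑ i, deriv (fun s => Φ (s, v) i) u ^ 2 = a u ^ 2) ∧
        (∑ i, deriv (fun s => Φ (s, v) i) u * deriv (fun t => Φ (u, t) i) v = 0) ∧
        (∑ i, deriv (fun t => Φ (u, t) i) v ^ 2 = b u ^ 2) := by
  -- derivative of `b`
  have hb' : ContDiff ℝ ((⊤ : ℕ∞) : WithTop ℕ∞) (deriv b) := (contDiff_infty_iff_deriv.mp hb).2
  have hbd : Differentiable ℝ b := (contDiff_infty_iff_deriv.mp hb).1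
  have hbp' : Function.Periodic (deriv b) 1 := by
    intro u
    have h1 : deriv (fun x => b (x + 1)) u = deriv b (u + 1) := deriv_comp_add_const b 1 u
    have h2 : (fun x => b (x + 1)) = b := funext hbp
    rw [← h1, h2]
  -- bounds
  obtain ⟨x1, hx1⟩ := periodic_exists_min a ha.continuous hap
  obtain ⟨x2, hx2⟩ := periodic_exists_max (fun x => |deriv b x|) hb'.continuous.abs
    (fun u => by show |deriv b (u + 1)| = |deriv b u|; rw [hbp' u])
  set m : ℝ := a x1 with hm
  set M : ℝ := |deriv b x2| with hM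
  have hm0 : 0 < m := ha0 x1
  have hM0 : 0 ≤ M := abs_nonneg _
  -- the winding number
  obtain ⟨N, hN⟩ := exists_nat_gt (M / m)
  have hN0 : (0 : ℝ) < N := lt_of_le_of_lt (div_nonneg hM0 hm0.le) hN
  set c : ℝ := 2 * π * N with hc
  have hc0 : 0 < c := by positivity
  have hcN : (N : ℝ) ≤ c := by
    have : (1 : ℝ) ≤ 2 * π := by linarith [Real.pi_gt_three]
    calc (N : ℝ) = 1 * N := (one_mul _).symm
      _ ≤ 2 * π * N := by gcongr
  have hMc : M / c < m := by
    rw [div_lt_iff₀ hc0]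
    have h1 : M < m * N := by
      rw [div_lt_iff₀ hm0] at hN
      linarith
    calc M < m * N := h1
      _ ≤ m * c := by gcongr
  -- the speed function of the profile circle
  have hpos : ∀ u, 0 < a u ^ 2 - (deriv b u / c) ^ 2 := by
    intro u
    have h1 : |deriv b u / c| < a u := by
      rw [abs_div, abs_of_pos hc0]
      calc |deriv b u| / c ≤ M / c := by gcongr; exact hx2 u
        _ < m := hMc
        _ ≤ a u := hx1 u
    have h2 : (deriv b u / c) ^ 2 < a u ^ 2 := by
      rw [← sq_abs (deriv b u / c)]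
      exact pow_lt_pow_left₀ h1 (abs_nonneg _) (by norm_num)
    linarith
  set σ : ℝ → ℝ := fun u => √(a u ^ 2 - (deriv b u / c) ^ 2) with hσ
  have hσsm : ContDiff ℝ ((⊤ : ℕ∞) : WithTop ℕ∞) σ :=
    ((ha.pow 2).sub ((hb'.div_const c).pow 2)).sqrt (fun u => (hpos u).ne')
  have hσpos : ∀ u, 0 < σ u := fun u => Real.sqrt_pos.mpr (hpos u)
  have hσsq : ∀ u, σ u ^ 2 = a u ^ 2 - (deriv b u / c) ^ 2 := fun u => Real.sq_sqrt (hpos u).le
  have hσc : Continuous σ := hσsm.continuous
  have hσp : Function.Periodic σ 1 := by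
    intro u
    show √(a (u + 1) ^ 2 - (deriv b (u + 1) / c) ^ 2) = √(a u ^ 2 - (deriv b u / c) ^ 2)
    rw [hap u, hbp' u]
  set L : ℝ := ∫ x in (0 : ℝ)..1, σ x with hL
  have hL0 : 0 < L :=
    intervalIntegral.intervalIntegral_pos_of_pos (hσc.intervalIntegrable 0 1) hσpos zero_lt_one
  set θ : ℝ → ℝ := fun u => (2 * π / L) * ∫ x in (0 : ℝ)..u, σ x with hθ
  have hθd : ∀ u, HasDerivAt θ ((2 * π / L) * σ u) u := fun u =>
    ((hσc.integral_hasStrictDerivAt 0 u).hasDerivAt).const_mul (2 * π / L)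
  have hθsm : ContDiff ℝ ((⊤ : ℕ∞) : WithTop ℕ∞) θ := by
    rw [contDiff_infty_iff_deriv]
    refine ⟨fun u => (hθd u).differentiableAt, ?_⟩
    have : deriv θ = fun u => (2 * π / L) * σ u := funext fun u => (hθd u).deriv
    rw [this]
    exact contDiff_const.mul hσsm
  have hθp : ∀ u, θ (u + 1) = θ u + 2 * π := by
    intro u
    have h1 : ∫ x in (0 : ℝ)..(u + 1), σ x
        = (∫ x in (0 : ℝ)..u, σ x) + ∫ x in u..(u + 1), σ x :=
      (intervalIntegral.integral_add_adjacent_intervals (hσc.intervalIntegrable 0 u)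
        (hσc.intervalIntegrable u (u + 1))).symm
    have h2 : ∫ x in u..(u + 1), σ x = L := by
      have := hσp.intervalIntegral_add_eq u 0
      rw [this, zero_add]
    show (2 * π / L) * ∫ x in (0 : ℝ)..(u + 1), σ x
      = (2 * π / L) * (∫ x in (0 : ℝ)..u, σ x) + 2 * π
    rw [h1, h2]
    field_simp
  set R : ℝ := L / (2 * π) with hR
  have hR0 : 0 < R := by positivity
  -- the immersion
  refine ⟨fun p => ![b p.1 / c * cos (c * p.2), b p.1 / c * sin (c * p.2),
    R * cos (θ p.1), R * sin (θ p.1)], ?_, ?_, ?_, ?_⟩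
  · rw [contDiff_pi]
    intro i
    fin_cases i
    · exact ((hb.comp contDiff_fst).div_const c).mul
        (Real.contDiff_cos.comp (contDiff_const.mul contDiff_snd))
    · exact ((hb.comp contDiff_fst).div_const c).mul
        (Real.contDiff_sin.comp (contDiff_const.mul contDiff_snd))
    · exact contDiff_const.mul (Real.contDiff_cos.comp (hθsm.comp contDiff_fst))
    · exact contDiff_const.mul (Real.contDiff_sin.comp (hθsm.comp contDiff_fst))
  · intro u v
    simp only [hbp u, hθp u, Real.cos_add_two_pi, Real.sin_add_two_pi]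
  · intro u v
    have h1 : c * (v + 1) = c * v + N * (2 * π) := by rw [hc]; ring
    simp only [h1, Real.cos_add_nat_mul_two_pi, Real.sin_add_nat_mul_two_pi]
  · intro u v
    have hb1 : HasDerivAt b (deriv b u) u := (hbd u).hasDerivAt
    have d0 : deriv (fun s => b s / c * cos (c * v)) u = deriv b u / c * cos (c * v) :=
      ((hb1.div_const c).mul_const (cos (c * v))).deriv
    have d1 : deriv (fun s => b s / c * sin (c * v)) u = deriv b u / c * sin (c * v) :=
      ((hb1.div_const c).mul_const (sin (c * v))).deriv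
    have d2 : deriv (fun s => R * cos (θ s)) u = R * (-sin (θ u) * ((2 * π / L) * σ u)) :=
      (((hθd u).cos).const_mul R).deriv
    have d3 : deriv (fun s => R * sin (θ s)) u = R * (cos (θ u) * ((2 * π / L) * σ u)) :=
      (((hθd u).sin).const_mul R).deriv
    have hcv : HasDerivAt (fun t : ℝ => c * t) c v := by
      simpa using (hasDerivAt_id v).const_mul c
    have e0 : deriv (fun t => b u / c * cos (c * t)) v = b u / c * (-sin (c * v) * c) :=
      ((hcv.cos).const_mul (b u / c)).deriv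
    have e1 : deriv (fun t => b u / c * sin (c * t)) v = b u / c * (cos (c * v) * c) :=
      ((hcv.sin).const_mul (b u / c)).deriv
    have e2 : deriv (fun _ : ℝ => R * cos (θ u)) v = 0 := deriv_const v _
    have e3 : deriv (fun _ : ℝ => R * sin (θ u)) v = 0 := deriv_const v _
    have hRL : R * (2 * π / L) = 1 := by
      rw [hR]
      field_simp
    have hs1 := Real.sin_sq_add_cos_sq (c * v)
    have hs2 := Real.sin_sq_add_cos_sq (θ u)
    simp only [Fin.sum_univ_four, Matrix.cons_val_zero, Matrix.cons_val_one, Matrix.cons_val_two,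
      Matrix.cons_val_three, Matrix.head_cons, Matrix.tail_cons, d0, d1, d2, d3, e0, e1, e2, e3]
    refine ⟨?_, ?_, ?_⟩
    · have key : (R * (-sin (θ u) * ((2 * π / L) * σ u))) ^ 2
          + (R * (cos (θ u) * ((2 * π / L) * σ u))) ^ 2 = σ u ^ 2 := by
        have : (R * (-sin (θ u) * ((2 * π / L) * σ u))) ^ 2
          + (R * (cos (θ u) * ((2 * π / L) * σ u))) ^ 2
          = (R * (2 * π / L)) ^ 2 * σ u ^ 2 * (sin (θ u) ^ 2 + cos (θ u) ^ 2) := by ring
        rw [this, hRL, hs2]
        ring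
      have key2 : (deriv b u / c * cos (c * v)) ^ 2 + (deriv b u / c * sin (c * v)) ^ 2
          = (deriv b u / c) ^ 2 := by
        have : (deriv b u / c * cos (c * v)) ^ 2 + (deriv b u / c * sin (c * v)) ^ 2
          = (deriv b u / c) ^ 2 * (sin (c * v) ^ 2 + cos (c * v) ^ 2) := by ring
        rw [this, hs1, mul_one]
      have := hσsq u
      linarith
    · ring
    · have : (b u / c * (-sin (c * v) * c)) ^ 2 + (b u / c * (cos (c * v) * c)) ^ 2 + 0 ^ 2 + 0 ^ 2
          = (b u / c * c) ^ 2 * (sin (c * v) ^ 2 + cos (c * v) ^ 2) := by ring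
      rw [this, hs1, mul_one, div_mul_cancel₀ _ hc0.ne']

end Vale.Agent.Results.P205.WarpedTorus
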