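import Mathlib
import Vale.Agent.Results.P205.WarpedTorus

namespace Vale.Agent.Results.P205.WarpedTorusPullback

open scoped ContDiff

/-- Every warped-product metric `g = a(u)^2 du^2 + b(u)^2 dv^2` on the torus `ℝ^2 / ℤ^2`
(`a`, `b` smooth, positive, `1`-periodic) is the pullback of the Euclidean metric of `ℝ^4`
under a smooth doubly periodic map `F = (Φ 0, Φ 1, Φ 2, Φ 3) : ℝ^2 → ℝ^4`: for every point `p`
and all tangent vectors `w`, `w'`, the Euclidean inner product of `dF_p(w)` and `dF_p(w')`,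
that is the sum over the four components of `d(Φ i)_p(w) * d(Φ i)_p(w')`, equals `g_p(w, w')`.
So `F` induces a smooth isometric immersion of the torus into `ℝ^4`. -/
theorem result (a b : ℝ → ℝ)
    (ha : ContDiff ℝ ((⊤ : ℕ∞) : WithTop ℕ∞) a) (hb : ContDiff ℝ ((⊤ : ℕ∞) : WithTop ℕ∞) b)
    (hap : ∀ u, a (u + 1) = a u) (hbp : ∀ u, b (u + 1) = b u)
    (ha0 : ∀ u, 0 < a u) (hb0 : ∀ u, 0 < b u) :
    ∃ Φ : Fin 4 → ℝ × ℝ → ℝ,
      (∀ i, ContDiff ℝ ((⊤ : ℕ∞) : WithTop ℕ∞) (Φ i)) ∧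
      (∀ i u v, Φ i (u + 1, v) = Φ i (u, v)) ∧ (∀ i u v, Φ i (u, v + 1) = Φ i (u, v)) ∧
      ∀ (p w w' : ℝ × ℝ),
        ∑ i, fderiv ℝ (Φ i) p w * fderiv ℝ (Φ i) p w'
          = a p.1 ^ 2 * (w.1 * w'.1) + b p.1 ^ 2 * (w.2 * w'.2) := by
  obtain ⟨Φ₀, hΦ, hp1, hp2, hmet⟩ :=
    Vale.Agent.Results.P205.WarpedTorus.result a b ha hb hap hbp ha0 hb0
  have hsm : ∀ i, ContDiff ℝ ((⊤ : ℕ∞) : WithTop ℕ∞) (fun p => Φ₀ p i) := contDiff_pi.mp hΦ
  refine ⟨fun i p => Φ₀ p i, hsm, fun i u v => congrFun (hp1 u v) i,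
    fun i u v => congrFun (hp2 u v) i, ?_⟩
  rintro ⟨u, v⟩ ⟨w1, w2⟩ ⟨w1', w2'⟩
  have h1 : ∀ i, HasFDerivAt (fun p => Φ₀ p i) (fderiv ℝ (fun p => Φ₀ p i) (u, v)) (u, v) :=
    fun i => (((hsm i).differentiable (by simp)) (u, v)).hasFDerivAt
  -- derivatives along the two coordinate directions as values of the differential
  have hu : ∀ i, deriv (fun s => Φ₀ (s, v) i) u = fderiv ℝ (fun p => Φ₀ p i) (u, v) (1, 0) := by
    intro i
    have h2 : HasDerivAt (fun s : ℝ => (s, v)) ((1 : ℝ), (0 : ℝ)) u :=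
      (hasDerivAt_id u).prodMk (hasDerivAt_const u v)
    exact ((h1 i).comp_hasDerivAt u h2).deriv
  have hv : ∀ i, deriv (fun t => Φ₀ (u, t) i) v = fderiv ℝ (fun p => Φ₀ p i) (u, v) (0, 1) := by
    intro i
    have h2 : HasDerivAt (fun t : ℝ => (u, t)) ((0 : ℝ), (1 : ℝ)) v :=
      (hasDerivAt_const v u).prodMk (hasDerivAt_id v)
    exact ((h1 i).comp_hasDerivAt v h2).deriv
  -- linearity of the differential
  have hlin : ∀ (x y : ℝ) (i : Fin 4), fderiv ℝ (fun p => Φ₀ p i) (u, v) (x, y)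
      = x * fderiv ℝ (fun p => Φ₀ p i) (u, v) (1, 0)
        + y * fderiv ℝ (fun p => Φ₀ p i) (u, v) (0, 1) := by
    intro x y i
    have e : ((x, y) : ℝ × ℝ) = x • ((1 : ℝ), (0 : ℝ)) + y • ((0 : ℝ), (1 : ℝ)) := by
      ext <;> simp
    rw [e, map_add, map_smul, map_smul]
    simp
  obtain ⟨m1, m2, m3⟩ := hmet u v
  simp only [hu] at m1 m2
  simp only [hv] at m2 m3
  simp only [hlin w1 w2, hlin w1' w2']
  have expand : ∀ i : Fin 4,
      (w1 * fderiv ℝ (fun p => Φ₀ p i) (u, v) (1, 0)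
          + w2 * fderiv ℝ (fun p => Φ₀ p i) (u, v) (0, 1))
        * (w1' * fderiv ℝ (fun p => Φ₀ p i) (u, v) (1, 0)
          + w2' * fderiv ℝ (fun p => Φ₀ p i) (u, v) (0, 1))
      = (w1 * w1') * fderiv ℝ (fun p => Φ₀ p i) (u, v) (1, 0) ^ 2
        + (w1 * w2' + w2 * w1') * (fderiv ℝ (fun p => Φ₀ p i) (u, v) (1, 0)
            * fderiv ℝ (fun p => Φ₀ p i) (u, v) (0, 1))
        + (w2 * w2') * fderiv ℝ (fun p => Φ₀ p i) (u, v) (0, 1) ^ 2 := by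
    intro i; ring
  simp only [expand, Finset.sum_add_distrib, ← Finset.mul_sum, m1, m2, m3]
  ring

end Vale.Agent.Results.P205.WarpedTorusPullback
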